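import Vale.Agent.P235.H479.Grid
import Mathlib.Data.Finset.Sort

/-! Many disjoint connected sets crossing an edge-minimal linkage give a grill. -/

namespace Vale.Agent.P235.Grid

variable {V : Type}

/-- the cut data as a structure -/
structure IsCut (G : SimpleGraph V) (X Y : Set V) (S : Finset V) (L : Set V) : Prop where
  hX : ∀ x ∈ X, x ∈ L ∨ x ∈ S
  hY : ∀ y ∈ Y, y ∉ L
  hS : ∀ s ∈ S, s ∉ L
  cl : ∀ u ∈ L, ∀ v, G.Adj u v → v ∈ L ∨ v ∈ S

/-- going forward along a path outside `S` one stays in `L` -/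
theorem IsCut.fwd {G : SimpleGraph V} {X Y : Set V} {S : Finset V} {L : Set V}
    (h : IsCut G X Y S L) {p : ℕ → V} {a b : ℕ} (hadj : ∀ t, a ≤ t → t < b → G.Adj (p t) (p (t + 1)))
    (hS : ∀ t, a < t → t ≤ b → p t ∉ S) (ha : p a ∈ L) : ∀ t, a ≤ t → t ≤ b → p t ∈ L := by
  intro t hat
  induction t, hat using Nat.le_induction with
  | base => intro _; exact ha
  | succ t ht ih =>
    intro htb
    rcases h.cl _ (ih (by omega)) _ (hadj t ht (by omega)) with h1 | h1
    · exact h1
    · exact absurd h1 (hS (t + 1) (by omega) htb)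

/-- every path from `X` to `Y` meets `S` -/
theorem IsCut.meets {G : SimpleGraph V} {X Y : Set V} {S : Finset V} {L : Set V}
    (h : IsCut G X Y S L) {p : ℕ → V} {m : ℕ} (hadj : ∀ t < m, G.Adj (p t) (p (t + 1)))
    (h0 : p 0 ∈ X) (hm : p m ∈ Y) : ∃ t ≤ m, p t ∈ S := by
  by_contra hcon
  push Not at hcon
  have h1 : p 0 ∈ L := by
    rcases h.hX _ h0 with h1 | h1
    · exact h1
    · exact absurd h1 (hcon 0 (Nat.zero_le _))
  have := h.fwd (a := 0) (b := m) (fun t _ ht => hadj t ht) (fun t _ ht => hcon t ht) h1 m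
    (Nat.zero_le _) le_rfl
  exact h.hY _ hm this

/-- threshold on a path with exactly one vertex in `S` -/
theorem IsCut.thr {G : SimpleGraph V} {X Y : Set V} {S : Finset V} {L : Set V}
    (h : IsCut G X Y S L) {p : ℕ → V} {m s : ℕ} (hadj : ∀ t < m, G.Adj (p t) (p (t + 1)))
    (h0 : p 0 ∈ X) (hm : p m ∈ Y) (hs : s ≤ m) (hsS : p s ∈ S)
    (huniq : ∀ t ≤ m, p t ∈ S → t = s) : ∀ t ≤ m, (p t ∈ L ↔ t < s) := by
  intro t ht
  constructor
  · intro htL
    by_contra hcon
    rcases Nat.eq_or_lt_of_not_lt hcon with e | hlt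
    · rw [e] at htL
      exact h.hS _ hsS htL
    · have := h.fwd (a := t) (b := m) (fun u _ hu => hadj u hu)
        (fun u hu1 hu2 hu3 => by have := huniq u hu2 hu3; omega) htL m ht le_rfl
      exact h.hY _ hm this
  · intro hts
    have h1 : p 0 ∈ L := by
      rcases h.hX _ h0 with h1 | h1
      · exact h1
      · have := huniq 0 (Nat.zero_le _) h1; omega
    exact h.fwd (a := 0) (b := t) (fun u _ hu => hadj u (by omega))
      (fun u hu1 hu2 hu3 => by have := huniq u (by omega) hu3; omega) h1 t (Nat.zero_le _) le_rfl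

/-- threshold on the path which contains the deleted edge and avoids `S` -/
theorem IsCut.thr' {G : SimpleGraph V} {X Y : Set V} {S : Finset V} {L : Set V}
    (h : IsCut G X Y S L) {p : ℕ → V} {m s : ℕ}
    (hadj : ∀ t < m, t + 1 ≠ s → G.Adj (p t) (p (t + 1)))
    (h0 : p 0 ∈ X) (hm : p m ∈ Y) (hS : ∀ t ≤ m, p t ∉ S) :
    ∀ t ≤ m, (p t ∈ L ↔ t < s) := by
  intro t ht
  constructor
  · intro htL
    by_contra hcon
    have := h.fwd (a := t) (b := m) (fun u hu1 hu => hadj u hu (by omega))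
      (fun u hu1 hu2 => hS u hu2) htL m ht le_rfl
    exact h.hY _ hm this
  · intro hts
    have h1 : p 0 ∈ L := by
      rcases h.hX _ h0 with h1 | h1
      · exact h1
      · exact absurd h1 (hS 0 (Nat.zero_le _))
    exact h.fwd (a := 0) (b := t) (fun u _ hu => hadj u (by omega) (by omega))
      (fun u hu1 hu2 => hS u (by omega)) h1 t (Nat.zero_le _) le_rfl

/-- a separator of order `< n` of a linkage of `n` paths, one of which, `b`, is broken: exactly one
vertex on each other path -/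
theorem cut_count {n : ℕ} {S : Finset V} (hS : S.card < n) {G : SimpleGraph V} (Q : Fin n → Pth G)
    (hQ : ∀ a b, a ≠ b → ∀ i ≤ (Q a).len, ∀ j ≤ (Q b).len, (Q a).p i ≠ (Q b).p j) (b : Fin n)
    (hm : ∀ a, a ≠ b → ∃ t ≤ (Q a).len, (Q a).p t ∈ S) :
    (∀ t ≤ (Q b).len, (Q b).p t ∉ S) ∧
    ∀ a, a ≠ b → ∃ s ≤ (Q a).len, (Q a).p s ∈ S ∧ ∀ t ≤ (Q a).len, (Q a).p t ∈ S → t = s := by
  classical
  choose! s hs1 hs2 using hm
  have hinj : Set.InjOn (fun a => (Q a).p (s a)) (↑(Finset.univ.erase b) : Set (Fin n)) := by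
    intro a ha a' ha' haa
    by_contra hne
    rw [Finset.coe_erase] at ha ha'
    exact hQ a a' hne _ (hs1 a ha.2) _ (hs1 a' ha'.2) haa
  have himg : (Finset.univ.erase b).image (fun a => (Q a).p (s a)) = S := by
    refine Finset.eq_of_subset_of_card_le ?_ ?_
    · intro v hv
      obtain ⟨a, ha, rfl⟩ := Finset.mem_image.mp hv
      exact hs2 a (Finset.ne_of_mem_erase ha)
    · rw [Finset.card_image_of_injOn hinj, Finset.card_erase_of_mem (Finset.mem_univ _),
        Finset.card_univ, Fintype.card_fin]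
      omega
  constructor
  · intro t ht hv
    rw [← himg] at hv
    obtain ⟨a, ha, hv⟩ := Finset.mem_image.mp hv
    exact hQ a b (Finset.ne_of_mem_erase ha) _ (hs1 a (Finset.ne_of_mem_erase ha)) t ht hv
  · intro a ha
    refine ⟨s a, hs1 a ha, hs2 a ha, ?_⟩
    intro t ht hv
    rw [← himg] at hv
    obtain ⟨a', ha', hv⟩ := Finset.mem_image.mp hv
    have e : a' = a := by
      by_contra hne
      exact hQ a' a hne _ (hs1 a' (Finset.ne_of_mem_erase ha')) t ht hv
    subst e
    exact ((Q a').inj _ (hs1 a' ha) t ht hv).symm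

/-- the sorted case -/
theorem grill_core {n R d N M : ℕ} (hM : M = d * n + 1) (hN : N = d * M) (hd : 0 < d)
    {J : SimpleGraph V} {X Y : Set V} (Q : Fin n → Pth J) (hX : ∀ a, (Q a).p 0 ∈ X)
    (hY : ∀ a, (Q a).p (Q a).len ∈ Y)
    (hQ : ∀ a b, a ≠ b → ∀ i ≤ (Q a).len, ∀ j ≤ (Q b).len, (Q a).p i ≠ (Q b).p j)
    (P : ℕ → Set V) (hP : ∀ i < N, Conn J (P i))
    (hPd : ∀ i < N, ∀ j < N, i ≠ j → Disjoint (P i) (P j))
    (hcut : ∀ i < N, ∀ u v, J.Adj u v → u ∉ P i → v ∈ P i → Cut (J.deleteEdges {s(u, v)}) X Y n)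
    (h : Fin R → Fin n) (hh : Function.Injective h)
    (hm : ∀ i < N, ∀ b, ∃ t ≤ (Q (h b)).len, (Q (h b)).p t ∈ P i)
    (b : Fin n) (f : ℕ → ℕ) (hf : ∀ i < N, ∀ j < N, i < j → f i < f j)
    (hf1 : ∀ i < N, f i ≤ (Q b).len) (hf2 : ∀ i < N, (Q b).p (f i) ∈ P i)
    (hf3 : ∀ i < N, ∀ t < f i, (Q b).p t ∉ P i) : Grill J R d := by
  classical
  have hMpos : 0 < M := by omega
  have hlM : ∀ l, l < d → l * M < N := by
    intro l hl
    rw [hN]
    exact Nat.mul_lt_mul_of_pos_right hl hMpos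
  -- the cuts
  have hcuts : ∀ l, ∃ (S : Finset V) (L : Set V), 1 ≤ l → l < d → S.card < n ∧
      (∀ i < N, (∀ v ∈ P i, v ∉ S) → (i < l * M → P i ⊆ L) ∧ (l * M ≤ i → Disjoint (P i) L)) ∧
      ∀ a, ∃ s ≤ (Q a).len + 1, ∀ t ≤ (Q a).len, ((Q a).p t ∈ L ↔ t < s) := by
    intro l
    by_cases hl : 1 ≤ l ∧ l < d
    · obtain ⟨hl1, hl2⟩ := hl
      have hc := hlM l hl2
      have h0c : 0 < l * M := Nat.mul_pos hl1 hMpos
      have hfpos : 0 < f (l * M) := lt_of_le_of_lt (Nat.zero_le _) (hf 0 (by omega) _ hc h0c)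
      set φ := f (l * M) with hφ
      have hφle : φ ≤ (Q b).len := hf1 _ hc
      have hadj : J.Adj ((Q b).p (φ - 1)) ((Q b).p φ) := by
        have := (Q b).adj (φ - 1) (by omega)
        rwa [Nat.sub_add_cancel hfpos] at this
      have hu : (Q b).p (φ - 1) ∉ P (l * M) := hf3 _ hc _ (by omega)
      have hv : (Q b).p φ ∈ P (l * M) := hf2 _ hc
      obtain ⟨S, L, hcard, c1, c2, c3, c4⟩ := hcut _ hc _ _ hadj hu hv
      have hcutS : IsCut (J.deleteEdges {s((Q b).p (φ - 1), (Q b).p φ)}) X Y S L := ⟨c1, c2, c3, c4⟩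
      -- adjacency in the graph with the deleted edge
      have hadj' : ∀ u v, J.Adj u v → ¬ (u = (Q b).p (φ - 1) ∧ v = (Q b).p φ) →
          ¬ (u = (Q b).p φ ∧ v = (Q b).p (φ - 1)) →
          (J.deleteEdges {s((Q b).p (φ - 1), (Q b).p φ)}).Adj u v := by
        intro u v huv h1 h2
        rw [SimpleGraph.deleteEdges_adj]
        refine ⟨huv, ?_⟩
        rw [Set.mem_singleton_iff, Sym2.eq_iff]
        tauto
      have hoff : ∀ a, a ≠ b → ∀ t < (Q a).len,
          (J.deleteEdges {s((Q b).p (φ - 1), (Q b).p φ)}).Adj ((Q a).p t) ((Q a).p (t + 1)) := by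
        intro a hab t ht
        refine hadj' _ _ ((Q a).adj t ht) ?_ ?_
        · rintro ⟨e, _⟩
          exact hQ a b hab t ht.le (φ - 1) (by omega) e
        · rintro ⟨e, _⟩
          exact hQ a b hab t ht.le φ hφle e
      have hon : ∀ t < (Q b).len, t + 1 ≠ φ →
          (J.deleteEdges {s((Q b).p (φ - 1), (Q b).p φ)}).Adj ((Q b).p t) ((Q b).p (t + 1)) := by
        intro t ht hne
        refine hadj' _ _ ((Q b).adj t ht) ?_ ?_
        · rintro ⟨e, _⟩
          have := (Q b).inj t ht.le (φ - 1) (by omega) e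
          omega
        · rintro ⟨e1, e2⟩
          have h1 := (Q b).inj t ht.le φ hφle e1
          have h2 := (Q b).inj (t + 1) (by omega) (φ - 1) (by omega) e2
          omega
      obtain ⟨k1, k2⟩ := cut_count hcard Q hQ b fun a hab =>
        hcutS.meets (hoff a hab) (hX a) (hY a)
      have hthrb : ∀ t ≤ (Q b).len, ((Q b).p t ∈ L ↔ t < φ) :=
        hcutS.thr' hon (hX b) (hY b) k1
      refine ⟨S, L, fun _ _ => ⟨hcard, ?_, ?_⟩⟩
      · intro i hi hiS
        -- `P i` lies on one side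
        have hside : ∀ u ∈ P i, ∀ v ∈ P i, u ∈ L → v ∈ L := by
          intro u hu' v hv' huL
          refine ((hP i hi).2 u hu' v hv').closed (L := {w | w ∈ L ∧ w ∈ P i}) ⟨huL, hu'⟩ ?_ |>.1
          rintro w ⟨hwL, hwP⟩ x hwx hxP
          refine ⟨?_, hxP⟩
          have hwx' : (J.deleteEdges {s((Q b).p (φ - 1), (Q b).p φ)}).Adj w x := by
            refine hadj' _ _ hwx ?_ ?_
            · rintro ⟨e1, e2⟩
              have hi' : i = l * M := by
                by_contra hne
                exact Set.disjoint_left.mp (hPd i hi _ hc hne) (e2 ▸ hxP) hv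
              rw [hi'] at hwP
              exact hu (e1 ▸ hwP)
            · rintro ⟨e1, e2⟩
              have hi' : i = l * M := by
                by_contra hne
                exact Set.disjoint_left.mp (hPd i hi _ hc hne) (e1 ▸ hwP) hv
              rw [hi'] at hxP
              exact hu (e2 ▸ hxP)
          rcases hcutS.cl w hwL x hwx' with h1 | h1
          · exact h1
          · exact absurd h1 (hiS x hxP)
        constructor
        · intro hil v hv'
          refine hside _ (hf2 i hi) v hv' ?_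
          rw [hthrb _ (hf1 i hi)]
          exact hf i hi _ hc hil
        · intro hil
          rw [Set.disjoint_left]
          intro v hv' hvL
          have h1 := hside v hv' _ (hf2 i hi) hvL
          rw [hthrb _ (hf1 i hi)] at h1
          rcases Nat.eq_or_lt_of_le hil with e | hlt
          · rw [← e] at h1
            exact lt_irrefl _ h1
          · have := hf _ hc i hi hlt
            omega
      · intro a
        by_cases hab : a = b
        · subst hab
          exact ⟨φ, by omega, hthrb⟩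
        · obtain ⟨s, hs1, hs2, hs3⟩ := k2 a hab
          exact ⟨s, by omega, hcutS.thr (hoff a hab) (hX a) (hY a) hs1 hs2 hs3⟩
    · exact ⟨∅, ∅, fun h1 h2 => absurd ⟨h1, h2⟩ hl⟩
  choose S L hSL using hcuts
  -- the union of the separators
  set T : Finset V := (Finset.Ico 1 d).biUnion S with hT
  have hTcard : T.card < M := by
    have h1 : T.card ≤ ∑ l ∈ Finset.Ico 1 d, (S l).card := Finset.card_biUnion_le
    have h2 : ∑ l ∈ Finset.Ico 1 d, (S l).card ≤ ∑ l ∈ Finset.Ico 1 d, n := by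
      refine Finset.sum_le_sum fun l hl => ?_
      rw [Finset.mem_Ico] at hl
      exact (hSL l hl.1 hl.2).1.le
    have h3 : ∑ l ∈ Finset.Ico 1 d, n ≤ d * n := by
      rw [Finset.sum_const, smul_eq_mul, Nat.card_Ico]
      exact Nat.mul_le_mul_right _ (Nat.sub_le _ _)
    omega
  -- the chosen sets
  have hchoose : ∀ j, ∃ i, j < d → j * M ≤ i ∧ i < (j + 1) * M ∧ ∀ v ∈ P i, v ∉ T := by
    intro j
    by_cases hj : j < d
    · have hjN : (j + 1) * M ≤ N := by
        rw [hN]
        exact Nat.mul_le_mul_right _ hj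
      by_contra hcon
      push Not at hcon
      have hex : ∀ x : Fin M, ∃ v, v ∈ P (j * M + x) ∧ v ∈ T := by
        intro x
        have hx := x.2
        have h2 : (j + 1) * M = j * M + M := by rw [Nat.succ_mul]
        obtain ⟨_, h3⟩ := hcon (j * M + x)
        obtain ⟨v, hv1, hv2⟩ := h3 (by omega) (by omega)
        exact ⟨v, hv1, hv2⟩
      choose g hg1 hg2 using hex
      have hginj : Function.Injective g := by
        intro x y hxy
        by_contra hne
        have h2 : (j + 1) * M = j * M + M := by rw [Nat.succ_mul]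
        have hx := x.2
        have hy := y.2
        have hne' : j * M + (x : ℕ) ≠ j * M + (y : ℕ) := by
          intro e
          exact hne (Fin.ext (by omega))
        refine Set.disjoint_left.mp (hPd _ (by omega) _ (by omega) hne') (hg1 x) ?_
        rw [hxy]
        exact hg1 y
      have hcard : M ≤ T.card := by
        have h3 : (Finset.univ.image g) ⊆ T := by
          intro v hv
          obtain ⟨x, _, rfl⟩ := Finset.mem_image.mp hv
          exact hg2 x
        have h4 := Finset.card_le_card h3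
        rwa [Finset.card_image_of_injective _ hginj, Finset.card_univ, Fintype.card_fin] at h4
      omega
    · exact ⟨0, fun hh => absurd hh hj⟩
  choose I hI using hchoose
  have hIN : ∀ j < d, I j < N := by
    intro j hj
    have := (hI j hj).2.1
    have h2 : (j + 1) * M ≤ N := by
      rw [hN]
      exact Nat.mul_le_mul_right _ hj
    omega
  have hIS : ∀ j < d, ∀ l, 1 ≤ l → l < d → ∀ v ∈ P (I j), v ∉ S l := by
    intro j hj l hl1 hl2 v hv hvS
    refine (hI j hj).2.2 v hv ?_
    rw [hT, Finset.mem_biUnion]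
    exact ⟨l, Finset.mem_Ico.mpr ⟨hl1, hl2⟩, hvS⟩
  have hlow : ∀ j < d, ∀ l, 1 ≤ l → l < d → j < l → P (I j) ⊆ L l := by
    intro j hj l hl1 hl2 hjl
    refine ((hSL l hl1 hl2).2.1 _ (hIN j hj) (hIS j hj l hl1 hl2)).1 ?_
    have h1 := (hI j hj).2.1
    have h2 : (j + 1) * M ≤ l * M := Nat.mul_le_mul_right _ hjl
    omega
  have hhigh : ∀ j < d, ∀ l, 1 ≤ l → l < d → l ≤ j → Disjoint (P (I j)) (L l) := by
    intro j hj l hl1 hl2 hjl
    refine ((hSL l hl1 hl2).2.1 _ (hIN j hj) (hIS j hj l hl1 hl2)).2 ?_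
    have h1 := (hI j hj).1
    have h2 : l * M ≤ j * M := Nat.mul_le_mul_right _ hjl
    omega
  -- thresholds
  have hthr : ∀ (a : Fin n) (l : ℕ), ∃ s, 1 ≤ l → l < d → s ≤ (Q a).len + 1 ∧
      ∀ t ≤ (Q a).len, ((Q a).p t ∈ L l ↔ t < s) := by
    intro a l
    by_cases hl : 1 ≤ l ∧ l < d
    · obtain ⟨s, hs1, hs2⟩ := (hSL l hl.1 hl.2).2.2 a
      exact ⟨s, fun _ _ => ⟨hs1, hs2⟩⟩
    · exact ⟨0, fun h1 h2 => absurd ⟨h1, h2⟩ hl⟩
  choose σ hσ using hthr
  set τ : Fin R → ℕ → ℕ := fun a l =>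
    if l = 0 then 0 else if l < d then σ (h a) l else (Q (h a)).len + 1 with hτ
  have hpos : ∀ j < d, ∀ a, ∀ t ≤ (Q (h a)).len, (Q (h a)).p t ∈ P (I j) →
      τ a j ≤ t ∧ t < τ a (j + 1) := by
    intro j hj a t ht htP
    constructor
    · simp only [hτ]
      by_cases hj0 : j = 0
      · rw [if_pos hj0]; exact Nat.zero_le _
      · rw [if_neg hj0, if_pos hj]
        have h1 := Set.disjoint_left.mp (hhigh j hj j (by omega) hj le_rfl) htP
        rw [(hσ (h a) j (by omega) hj).2 t ht] at h1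
        omega
    · simp only [hτ]
      rw [if_neg (Nat.succ_ne_zero j)]
      by_cases hj1 : j + 1 < d
      · rw [if_pos hj1]
        have h1 := hlow j hj (j + 1) (by omega) hj1 (Nat.lt_succ_self j) htP
        rwa [(hσ (h a) (j + 1) (by omega) hj1).2 t ht] at h1
      · rw [if_neg hj1]
        omega
  have hmeet : ∀ i < d, ∀ a, ∃ t ≤ (Q (h a)).len, (Q (h a)).p t ∈ P (I i) :=
    fun i hi a => hm _ (hIN i hi) a
  have hstep : ∀ a, ∀ i < d, τ a i ≤ τ a (i + 1) := by
    intro a i hi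
    obtain ⟨t, ht1, ht2⟩ := hmeet i hi a
    obtain ⟨h1, h2⟩ := hpos i hi a t ht1 ht2
    omega
  refine ⟨fun a => Q (h a), τ, fun j => P (I j), ?_, ?_, ?_, ?_, ?_, ?_, hmeet, hpos⟩
  · intro a a' haa
    exact hQ _ _ fun e => haa (hh e)
  · intro a i j hij
    induction j, hij using Nat.le_induction with
    | base => intro _; exact le_rfl
    | succ j hj ih =>
      intro hjd
      exact (ih (by omega)).trans (hstep a j (by omega))
  · intro a
    simp only [hτ]
    rw [if_pos trivial]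
  · intro a
    simp only [hτ]
    rw [if_neg (by omega : ¬ d = 0), if_neg (lt_irrefl d)]
  · intro i hi
    exact hP _ (hIN i hi)
  · intro i hi j hj hij
    refine hPd _ (hIN i hi) _ (hIN j hj) ?_
    intro e
    have h1 := hI i hi
    have h2 := hI j hj
    rcases Nat.lt_or_gt_of_ne hij with hlt | hlt
    · have h3 : (i + 1) * M ≤ j * M := Nat.mul_le_mul_right _ hlt
      omega
    · have h3 : (j + 1) * M ≤ i * M := Nat.mul_le_mul_right _ hlt
      omega

theorem grill_of_cross (n R d : ℕ) (hR : 0 < R) (hd : 0 < d) : ∃ N, ∀ (V : Type) [Finite V]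
    (J : SimpleGraph V) (X Y : Set V) (Q : Fin n → Pth J), (∀ a, (Q a).p 0 ∈ X) →
    (∀ a, (Q a).p (Q a).len ∈ Y) →
    (∀ a b, a ≠ b → ∀ i ≤ (Q a).len, ∀ j ≤ (Q b).len, (Q a).p i ≠ (Q b).p j) →
    ∀ P : Fin N → Set V, (∀ i, Conn J (P i)) → (∀ i j, i ≠ j → Disjoint (P i) (P j)) →
    (∀ i u v, J.Adj u v → u ∉ P i → v ∈ P i → Cut (J.deleteEdges {s(u, v)}) X Y n) →
    ∀ h : Fin R → Fin n, Function.Injective h →
    (∀ i b, ∃ t ≤ (Q (h b)).len, (Q (h b)).p t ∈ P i) → Grill J R d := by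
  classical
  obtain ⟨N, hN⟩ : ∃ N, N = d * (d * n + 1) := ⟨_, rfl⟩
  refine ⟨N, ?_⟩
  intro V _ J X Y Q hX hY hQ P hP hPd hcut h hh hm
  set b : Fin n := h ⟨0, hR⟩ with hb
  have hv : ∀ i, ∃ t, t ≤ (Q b).len ∧ (Q b).p t ∈ P i := fun i => by
    obtain ⟨t, h1, h2⟩ := hm i ⟨0, hR⟩
    exact ⟨t, h1, h2⟩
  set g : Fin N → ℕ := fun i => Nat.find (hv i) with hg
  have hg1 : ∀ i, g i ≤ (Q b).len ∧ (Q b).p (g i) ∈ P i := fun i => Nat.find_spec (hv i)
  have hg2 : ∀ i, ∀ t < g i, (Q b).p t ∉ P i := by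
    intro i t ht htP
    exact Nat.find_min (hv i) ht ⟨ht.le.trans (hg1 i).1, htP⟩
  have hginj : Function.Injective g := by
    intro i j hij
    by_contra hne
    refine Set.disjoint_left.mp (hPd i j hne) (hg1 i).2 ?_
    rw [hij]
    exact (hg1 j).2
  have hcard : (Finset.univ.image g).card = N := by
    rw [Finset.card_image_of_injective _ hginj, Finset.card_univ, Fintype.card_fin]
  set e := (Finset.univ.image g).orderEmbOfFin hcard with he
  have hex : ∀ s : Fin N, ∃ i, g i = e s := by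
    intro s
    have := Finset.orderEmbOfFin_mem (Finset.univ.image g) hcard s
    obtain ⟨i, _, hi⟩ := Finset.mem_image.mp this
    exact ⟨i, hi⟩
  choose idx hidx using hex
  have hidxinj : Function.Injective idx := by
    intro s s' hs
    have : e s = e s' := by rw [← hidx s, ← hidx s', hs]
    exact e.injective this
  refine grill_core (n := n) (R := R) (d := d) (N := N) (M := d * n + 1) rfl hN hd Q hX hY hQ
    (fun s => if hs : s < N then P (idx ⟨s, hs⟩) else ∅) ?_ ?_ ?_ h hh ?_ b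
    (fun s => if hs : s < N then g (idx ⟨s, hs⟩) else 0) ?_ ?_ ?_ ?_
  · intro i hi
    simp only [dif_pos hi]
    exact hP _
  · intro i hi j hj hij
    simp only [dif_pos hi, dif_pos hj]
    refine hPd _ _ fun e' => hij ?_
    have := hidxinj e'
    exact Fin.mk.inj_iff.mp this
  · intro i hi u v huv hu hv'
    simp only [dif_pos hi] at hu hv'
    exact hcut _ u v huv hu hv'
  · intro i hi b'
    simp only [dif_pos hi]
    exact hm _ b'
  · intro i hi j hj hij
    simp only [dif_pos hi, dif_pos hj]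
    rw [hidx, hidx]
    exact e.strictMono (show (⟨i, hi⟩ : Fin N) < ⟨j, hj⟩ from hij)
  · intro i hi
    simp only [dif_pos hi]
    exact (hg1 _).1
  · intro i hi
    simp only [dif_pos hi]
    exact (hg1 _).2
  · intro i hi t ht
    simp only [dif_pos hi] at ht ⊢
    exact hg2 _ t ht

end Vale.Agent.P235.Grid
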