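import Vale.Agent.P235.Comp.Defs
import Mathlib.Combinatorics.SimpleGraph.Prod
import Mathlib.Combinatorics.SimpleGraph.Hasse
import Mathlib.Data.Finite.Prod

/-! Vocabulary for the excluded grid theorem. -/

namespace Vale.Agent.P235.Grid

variable {V W : Type}

/-- `H` is a minor of `G`: disjoint connected branch sets, adjacent ones joined by an edge. -/
def IsMinor (H : SimpleGraph W) (G : SimpleGraph V) : Prop :=
  ∃ U : W → Set V, (∀ w, (G.induce (U w)).Connected) ∧ (∀ w w', w ≠ w' → Disjoint (U w) (U w')) ∧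
    ∀ w w', H.Adj w w' → ∃ u ∈ U w, ∃ v ∈ U w', G.Adj u v

/-- the `r × r` grid -/
def grid (r : ℕ) : SimpleGraph (Fin r × Fin r) := SimpleGraph.pathGraph r □ SimpleGraph.pathGraph r

/-- `v` can be reached from `u` by a walk of `G` all of whose vertices after `u` lie in `B`. -/
def Rch (G : SimpleGraph V) (B : Set V) (u v : V) : Prop :=
  Relation.ReflTransGen (fun a b => G.Adj a b ∧ b ∈ B) u v

/-- `B` is nonempty and connected in `G` -/
def Conn (G : SimpleGraph V) (B : Set V) : Prop := B.Nonempty ∧ ∀ u ∈ B, ∀ v ∈ B, Rch G B u v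

/-- the graph `G` restricted to edges inside `B` -/
def inside (G : SimpleGraph V) (B : Set V) : SimpleGraph V where
  Adj u v := G.Adj u v ∧ u ∈ B ∧ v ∈ B
  symm := ⟨fun _ _ h => ⟨h.1.symm, h.2.2, h.2.1⟩⟩
  loopless := ⟨fun _ h => h.1.ne rfl⟩

/-- the neighbourhood of the set `A` -/
def nb (G : SimpleGraph V) (A : Set V) : Set V := {v | ∃ a ∈ A, G.Adj a v}

/-- `n` disjoint connected sets, each of which meets `X` and `Y` -/
def Linked (G : SimpleGraph V) (X Y : Set V) (n : ℕ) : Prop :=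
  ∃ P : Fin n → Set V, (∀ i, Conn G (P i)) ∧ (∀ i, (P i ∩ X).Nonempty) ∧
    (∀ i, (P i ∩ Y).Nonempty) ∧ ∀ i j, i ≠ j → Disjoint (P i) (P j)

/-- a separation of order less than `n` between `X` and `Y` -/
def Cut (G : SimpleGraph V) (X Y : Set V) (n : ℕ) : Prop :=
  ∃ (S : Finset V) (L : Set V), S.card < n ∧ (∀ x ∈ X, x ∈ L ∨ x ∈ S) ∧ (∀ y ∈ Y, y ∉ L) ∧
    (∀ s ∈ S, s ∉ L) ∧ ∀ u ∈ L, ∀ v, G.Adj u v → v ∈ L ∨ v ∈ S

/-- a path with vertices `p 0, …, p len` -/
structure Pth (G : SimpleGraph V) where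
  /-- length -/
  len : ℕ
  /-- vertices -/
  p : ℕ → V
  adj : ∀ i < len, G.Adj (p i) (p (i + 1))
  inj : ∀ i ≤ len, ∀ j ≤ len, p i = p j → i = j

/-- the `r × r` grid as a minor, with branch sets `B j c` (row `j`, column `c`) -/
def GridMinor (r : ℕ) (G : SimpleGraph V) : Prop :=
  ∃ B : ℕ → ℕ → Set V, (∀ j < r, ∀ c < r, Conn G (B j c)) ∧
    (∀ j < r, ∀ c < r, ∀ j' < r, ∀ c' < r, (j, c) ≠ (j', c') → Disjoint (B j c) (B j' c')) ∧
    (∀ j c, j < r → c + 1 < r → ∃ u ∈ B j c, ∃ v ∈ B j (c + 1), G.Adj u v) ∧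
    (∀ j c, j + 1 < r → c < r → ∃ u ∈ B j c, ∃ v ∈ B (j + 1) c, G.Adj u v)

/-- `R` disjoint paths `Q a`, cut into `d` consecutive segments (positions `τ a i ≤ t < τ a (i+1)`),
and `d` disjoint connected sets `U i`, each of which meets every path, but only in its `i`-th
segment -/
def Grill (G : SimpleGraph V) (R d : ℕ) : Prop :=
  ∃ (Q : Fin R → Pth G) (τ : Fin R → ℕ → ℕ) (U : ℕ → Set V),
    (∀ a b, a ≠ b → ∀ i ≤ (Q a).len, ∀ j ≤ (Q b).len, (Q a).p i ≠ (Q b).p j) ∧
    (∀ a i j, i ≤ j → j ≤ d → τ a i ≤ τ a j) ∧ (∀ a, τ a 0 = 0) ∧ (∀ a, τ a d = (Q a).len + 1) ∧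
    (∀ i < d, Conn G (U i)) ∧ (∀ i < d, ∀ j < d, i ≠ j → Disjoint (U i) (U j)) ∧
    (∀ i < d, ∀ a, ∃ t ≤ (Q a).len, (Q a).p t ∈ U i) ∧
    (∀ i < d, ∀ a, ∀ t ≤ (Q a).len, (Q a).p t ∈ U i → τ a i ≤ t ∧ t < τ a (i + 1))

/-- `B` is connected and contains more than half of `W` -/
def Big (G : SimpleGraph V) (W : Set V) (B : Set V) : Prop :=
  Conn G B ∧ W.ncard < 2 * (W ∩ B).ncard

/-- no set of at most `K` vertices meets all connected sets with more than half of `W` -/
def Haven (G : SimpleGraph V) (W : Set V) (K : ℕ) : Prop :=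
  ∀ S : Set V, S.ncard ≤ K → ∃ B, Big G W B ∧ Disjoint B S

theorem Rch.refl {G : SimpleGraph V} {B : Set V} (u : V) : Rch G B u u := Relation.ReflTransGen.refl

theorem Rch.trans {G : SimpleGraph V} {B : Set V} {u v w : V} (h : Rch G B u v)
    (h' : Rch G B v w) : Rch G B u w := Relation.ReflTransGen.trans h h'

theorem Rch.tail {G : SimpleGraph V} {B : Set V} {u v w : V} (h : Rch G B u v)
    (h' : G.Adj v w) (hw : w ∈ B) : Rch G B u w := Relation.ReflTransGen.tail h ⟨h', hw⟩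

theorem Rch.single {G : SimpleGraph V} {B : Set V} {u v : V} (h : G.Adj u v) (hv : v ∈ B) :
    Rch G B u v := (Rch.refl u).tail h hv

theorem Rch.mono {G G' : SimpleGraph V} (hG : G ≤ G') {B B' : Set V} (hB : B ⊆ B') {u v : V}
    (h : Rch G B u v) : Rch G' B' u v := by
  induction h with
  | refl => exact Rch.refl u
  | tail _ h2 ih => exact ih.tail (hG h2.1) (hB h2.2)

theorem Rch.mem {G : SimpleGraph V} {B : Set V} {u v : V} (h : Rch G B u v) (hu : u ∈ B) :
    v ∈ B := by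
  rcases Relation.ReflTransGen.cases_tail h with h | ⟨w, _, h⟩
  · exact h ▸ hu
  · exact h.2

theorem Rch.symm {G : SimpleGraph V} {B : Set V} {u v : V} (h : Rch G B u v) (hu : u ∈ B) :
    Rch G B v u := by
  induction h with
  | refl => exact Rch.refl u
  | tail h1 h2 ih => exact (Rch.single h2.1.symm (Rch.mem h1 hu)).trans ih

/-- a property which is preserved along edges of `B` holds along walks -/
theorem Rch.closed {G : SimpleGraph V} {B L : Set V} {u v : V} (h : Rch G B u v) (hu : u ∈ L)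
    (hL : ∀ a ∈ L, ∀ b, G.Adj a b → b ∈ B → b ∈ L) : v ∈ L := by
  induction h with
  | refl => exact hu
  | tail _ h2 ih => exact hL _ ih _ h2.1 h2.2

theorem Conn.mono {G G' : SimpleGraph V} (hG : G ≤ G') {B : Set V} (h : Conn G B) : Conn G' B :=
  ⟨h.1, fun u hu v hv => (h.2 u hu v hv).mono hG subset_rfl⟩

theorem Conn.singleton {G : SimpleGraph V} (v : V) : Conn G {v} :=
  ⟨⟨v, rfl⟩, fun a ha b hb => by
    rw [Set.mem_singleton_iff] at ha hb
    subst ha; subst hb
    exact Rch.refl _⟩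

/-- connected through one point -/
theorem Conn.of_point {G : SimpleGraph V} {B : Set V} {x : V} (hx : x ∈ B)
    (h : ∀ v ∈ B, Rch G B x v) : Conn G B :=
  ⟨⟨x, hx⟩, fun u hu v hv => ((h u hu).symm hx).trans (h v hv)⟩

theorem Conn.union {G : SimpleGraph V} {B C : Set V} (hB : Conn G B) (hC : Conn G C)
    (h : (B ∩ C).Nonempty) : Conn G (B ∪ C) := by
  obtain ⟨x, hxB, hxC⟩ := h
  refine Conn.of_point (Or.inl hxB) ?_
  rintro v (hv | hv)
  · exact (hB.2 x hxB v hv).mono le_rfl Set.subset_union_left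
  · exact (hC.2 x hxC v hv).mono le_rfl Set.subset_union_right

/-- union with an adjacent connected set -/
theorem Conn.union_adj {G : SimpleGraph V} {B C : Set V} (hB : Conn G B) (hC : Conn G C)
    {u v : V} (hu : u ∈ B) (hv : v ∈ C) (h : G.Adj u v) : Conn G (B ∪ C) := by
  refine Conn.of_point (Or.inl hu) ?_
  rintro w (hw | hw)
  · exact (hB.2 u hu w hw).mono le_rfl Set.subset_union_left
  · exact (Rch.single h (Or.inr hv)).trans ((hC.2 v hv w hw).mono le_rfl Set.subset_union_right)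

/-- union of connected sets through a common connected set -/
theorem Conn.iUnion {G : SimpleGraph V} {ι : Type} {B : Set V} {C : ι → Set V} (hB : Conn G B)
    (hC : ∀ i, Conn G (C i)) (h : ∀ i, (B ∩ C i).Nonempty) : Conn G (B ∪ ⋃ i, C i) := by
  obtain ⟨x, hx⟩ := hB.1
  refine Conn.of_point (Or.inl hx) ?_
  rintro v (hv | hv)
  · exact (hB.2 x hx v hv).mono le_rfl Set.subset_union_left
  · obtain ⟨i, hi⟩ := Set.mem_iUnion.mp hv
    obtain ⟨y, hy, hy'⟩ := h i
    refine ((hB.2 x hx y hy).mono le_rfl Set.subset_union_left).trans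
      (((hC i).2 y hy' v hi).mono le_rfl ?_)
    exact (Set.subset_iUnion C i).trans Set.subset_union_right

theorem inside_le (G : SimpleGraph V) (B : Set V) : inside G B ≤ G := fun _ _ h => h.1

/-- a connected set of `inside G B` which meets `B` is a connected subset of `B` -/
theorem Conn.of_inside {G : SimpleGraph V} {B C : Set V} (h : Conn (inside G B) C)
    (hm : (C ∩ B).Nonempty) : C ⊆ B ∧ Conn G C := by
  refine ⟨?_, h.mono (inside_le G B)⟩
  obtain ⟨x, hxC, hxB⟩ := hm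
  intro v hv
  exact (h.2 x hxC v hv).closed hxB fun a _ b hab _ => hab.2.2

theorem Conn.to_inside {G : SimpleGraph V} {B C : Set V} (h : Conn G C) (hm : C ⊆ B) :
    Conn (inside G B) C := by
  refine ⟨h.1, fun u hu v hv => ?_⟩
  have := h.2 u hu v hv
  have key : ∀ w, Rch G C u w → w ∈ C ∧ Rch (inside G B) C u w := by
    intro w hw
    induction hw with
    | refl => exact ⟨hu, Rch.refl u⟩
    | tail h1 h2 ih => exact ⟨h2.2, ih.2.tail ⟨h2.1, hm ih.1, hm h2.2⟩ h2.2⟩
  exact (key v this).2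

/-- intervals of paths are connected -/
theorem Pth.conn {G : SimpleGraph V} (q : Pth G) {a b : ℕ} (hab : a < b) (hb : b ≤ q.len + 1) :
    Conn G {v | ∃ t, a ≤ t ∧ t < b ∧ q.p t = v} := by
  refine Conn.of_point (x := q.p a) ⟨a, le_rfl, hab, rfl⟩ ?_
  rintro v ⟨t, ht1, ht2, rfl⟩
  induction t, ht1 using Nat.le_induction with
  | base => exact Rch.refl _
  | succ t ht ih => exact (ih (by omega)).tail (q.adj t (by omega)) ⟨t + 1, by omega, ht2, rfl⟩

/-- `Conn` and Mathlib's connectedness -/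
theorem conn_iff {G : SimpleGraph V} {B : Set V} : (G.induce B).Connected ↔ Conn G B := by
  constructor
  · intro h
    obtain ⟨x⟩ := h.nonempty
    refine Conn.of_point x.2 ?_
    intro v hv
    have := h.preconnected x ⟨v, hv⟩
    rw [SimpleGraph.reachable_iff_reflTransGen] at this
    have key : ∀ w : B, Relation.ReflTransGen (G.induce B).Adj x w → Rch G B x w := by
      intro w hw
      induction hw with
      | refl => exact Rch.refl _
      | tail _ h2 ih => exact ih.tail h2 (Subtype.mem _)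
    exact key _ this
  · intro h
    obtain ⟨x, hx⟩ := h.1
    have key : ∀ v, Rch G B x v → ∀ hv : v ∈ B, (G.induce B).Reachable ⟨x, hx⟩ ⟨v, hv⟩ := by
      intro v hv
      induction hv with
      | refl => intro _; exact SimpleGraph.Reachable.refl _
      | tail h1 h2 ih =>
        intro hv
        exact (ih (Rch.mem h1 hx)).trans (SimpleGraph.Adj.reachable h2.1)
    refine (SimpleGraph.connected_iff_exists_forall_reachable _).mpr ⟨⟨x, hx⟩, ?_⟩
    rintro ⟨v, hv⟩
    exact key v (h.2 x hx v hv) hv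

theorem GridMinor.mono {G G' : SimpleGraph V} (hG : G ≤ G') {r : ℕ} (h : GridMinor r G) :
    GridMinor r G' := by
  obtain ⟨B, h1, h2, h3, h4⟩ := h
  refine ⟨B, fun j hj c hc => (h1 j hj c hc).mono hG, h2, ?_, ?_⟩
  · intro j c hj hc
    obtain ⟨u, hu, v, hv, huv⟩ := h3 j c hj hc
    exact ⟨u, hu, v, hv, hG huv⟩
  · intro j c hj hc
    obtain ⟨u, hu, v, hv, huv⟩ := h4 j c hj hc
    exact ⟨u, hu, v, hv, hG huv⟩

theorem GridMinor.isMinor {G : SimpleGraph V} {r : ℕ} (h : GridMinor r G) : IsMinor (grid r) G := by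
  obtain ⟨B, h1, h2, h3, h4⟩ := h
  have hsymm : ∀ {X Y : Set V}, (∃ u ∈ X, ∃ v ∈ Y, G.Adj u v) → ∃ u ∈ Y, ∃ v ∈ X, G.Adj u v := by
    rintro X Y ⟨u, hu, v, hv, huv⟩
    exact ⟨v, hv, u, hu, huv.symm⟩
  refine ⟨fun w => B w.1 w.2, fun w => conn_iff.mpr (h1 w.1 w.1.2 w.2 w.2.2), ?_, ?_⟩
  · rintro ⟨j, c⟩ ⟨j', c'⟩ hne
    refine h2 j j.2 c c.2 j' j'.2 c' c'.2 ?_
    intro e
    rw [Prod.mk.injEq] at e
    exact hne (Prod.ext (Fin.ext e.1) (Fin.ext e.2))
  · rintro ⟨j, c⟩ ⟨j', c'⟩ hadj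
    unfold grid at hadj
    rw [SimpleGraph.boxProd_adj, SimpleGraph.pathGraph_adj, SimpleGraph.pathGraph_adj] at hadj
    simp only at hadj
    have e1 := j.2
    have e2 := j'.2
    have e3 := c.2
    have e4 := c'.2
    rcases hadj with ⟨h | h, e⟩ | ⟨h | h, e⟩
    · subst e
      have := h4 j c (by omega) c.2
      rw [h] at this
      exact this
    · subst e
      have := h4 j' c (by omega) c.2
      rw [h] at this
      exact hsymm this
    · subst e
      have := h3 j c j.2 (by omega)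
      rw [h] at this
      exact this
    · subst e
      have := h3 j c' j.2 (by omega)
      rw [h] at this
      exact hsymm this

end Vale.Agent.P235.Grid
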